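import Vale.Agent.P154.D8.K0.Main
import Vale.Agent.P154.D8.K1.Main
import Vale.Agent.P154.D8.K2.Main
import Vale.Agent.P154.D8.K3.Main
import Vale.Agent.P154.D8.K4.Main
import Vale.Agent.P154.D8.K5.Main
import Vale.Agent.P154.D8.K6.Main

namespace Vale.Agent.P154.D8

open PolyR Cert

/-- Coefficients of the potentials. -/
noncomputable def cc1 : ℕ → ℝ
  | 0 => (8793 / 10000 : ℝ)
  | 1 => (9663 / 10000 : ℝ)
  | 2 => (2167 / 2000 : ℝ)
  | 3 => (6181 / 5000 : ℝ)
  | 4 => (3593 / 2500 : ℝ)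
  | 5 => (1713 / 1000 : ℝ)
  | 6 => (23669 / 10000 : ℝ)
  | 7 => (47049 / 10000 : ℝ)
  | _ => 0

/-- Coefficients of the potentials. -/
noncomputable def cc2 : ℕ → ℝ
  | 0 => (-19931 / 10000 : ℝ)
  | 1 => (-22807 / 10000 : ℝ)
  | 2 => (-6503 / 2500 : ℝ)
  | 3 => (-7813 / 2500 : ℝ)
  | 4 => (-20297 / 5000 : ℝ)
  | 5 => (-29893 / 5000 : ℝ)
  | 6 => (-55561 / 5000 : ℝ)
  | 7 => (-450809 / 10000 : ℝ)
  | _ => 0

/-- Coefficients of the potentials. -/
noncomputable def cc4 : ℕ → ℝ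
  | 0 => (22633 / 10000 : ℝ)
  | 1 => (26709 / 10000 : ℝ)
  | 2 => (5977 / 2000 : ℝ)
  | 3 => (35781 / 10000 : ℝ)
  | 4 => (49293 / 10000 : ℝ)
  | 5 => (43879 / 5000 : ℝ)
  | 6 => (38881 / 2000 : ℝ)
  | 7 => (90439 / 625 : ℝ)
  | _ => 0

/-- Coefficients of the potentials. -/
noncomputable def zz : ℕ → ℝ
  | 0 => (997 / 1000 : ℝ)
  | 1 => (124 / 125 : ℝ)
  | 2 => (489 / 500 : ℝ)
  | 3 => (941 / 1000 : ℝ)
  | 4 => (427 / 500 : ℝ)
  | 5 => (333 / 500 : ℝ)
  | 6 => (177 / 500 : ℝ)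
  | _ => 0

theorem H : ChainHyp 8 (221 / 625 : ℝ) cc1 cc2 cc4 zz (101 / 200000 : ℝ) where
  hd := by norm_num
  hl0 := by norm_num
  hl1 := by norm_num
  hld := by norm_num
  hτ' := by norm_num
  hc01 := by simp only [cc1]; norm_num
  hc04 := by simp only [cc4]; norm_num
  hc0 := by simp only [cc1, cc2, cc4]; norm_num
  hcd1 := by simp only [cc1, show 8 - 1 = 7 from rfl]; norm_num
  hcd4 := by simp only [cc4, show 8 - 1 = 7 from rfl]; norm_num
  hcd := by simp only [cc1, cc2, cc4, show 8 - 1 = 7 from rfl]; norm_num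
  hζ0 := by
    intro k hk
    have hk' : k < 7 := by omega
    interval_cases k <;> simp only [zz] <;> norm_num
  hζ1 := by
    intro k hk
    have hk' : k < 7 := by omega
    interval_cases k <;> simp only [zz] <;> norm_num
  hstep := by
    intro k hk x y hx hy hx1 hy1
    have hk' : k < 7 := by omega
    interval_cases k
    · exact K0.step x y hx hy hx1 hy1
    · exact K1.step x y hx hy hx1 hy1
    · exact K2.step x y hx hy hx1 hy1
    · exact K3.step x y hx hy hx1 hy1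
    · exact K4.step x y hx hy hx1 hy1
    · exact K5.step x y hx hy hx1 hy1
    · exact K6.step x y hx hy hx1 hy1
  hT := by
    intro a b
    have h := Vale.Agent.P154.quad_nonneg (α := (9261396149077 / 18310546875000000 : ℝ)) (β := (70494022417 / 17166137695312500000 : ℝ)) (γ := (28133234410419307 / 7152557373046875000000 : ℝ)) (a := a) (b := b) (by norm_num) (by norm_num)
    simp only [show 8 - 1 = 7 from rfl, cc1, cc2, cc4, Pq]
    linarith

/-- Nonreconstruction for `8` children. -/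
theorem nonrecon (lam : ℝ) (h0 : 0 ≤ lam) (hdl : ((8 : ℕ) : ℝ) * lam ^ 2 ≤ 1) :
    Filter.Tendsto (reconError 3 8 lam) Filter.atTop (nhds 0) :=
  nonrecon_of_hyp H lam h0 hdl

end Vale.Agent.P154.D8
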